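import Mathlib
import Vale.Agent.P371.Defs
import Vale.Agent.P371.Lift
import Vale.Agent.P371.Kinetic

namespace Vale.Agent.Results.P371.GammaOne

open MeasureTheory LT1

/-- The one-dimensional Lieb-Thirring conjecture at `γ = 1`: `L_1(1) = L^{(1)}_1`, with the common
value `(2/√3) L^cl_1 = 4/(3√3 π)`; consequently `L_γ(1) ≤ (2/√3) L^cl_γ` for all `γ ≥ 1`. The last
two parts are the sharp variational and kinetic forms for orthonormal families in `H¹(ℝ; ℂ)`. -/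
theorem result :
    (LT 1 = LTone 1 ∧ LT 1 = ENNReal.ofReal (2 / √3 * Lcl 1) ∧
      2 / √3 * Lcl 1 = 4 / (3 * √3 * Real.pi)) ∧
    (∀ γ : ℝ, 1 ≤ γ → LT γ ≤ ENNReal.ofReal (2 / √3 * Lcl γ)) ∧
    (∀ W : ℝ → ℝ, Measurable W → (∀ x, 0 ≤ W x) →
      Integrable (fun x => W x ^ ((3 : ℝ) / 2)) →
      ∀ (n : ℕ) (u g : Fin n → ℝ → ℂ), (∀ j, IsH1 (u j) (g j)) → IsOrthonormal u →
        -(4 / (3 * √3 * Real.pi) * ∫ x, W x ^ ((3 : ℝ) / 2))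
          ≤ ∑ j, ((∫ x, ‖g j x‖ ^ 2) - ∫ x, W x * ‖u j x‖ ^ 2)) ∧
    (∀ (n : ℕ) (u g : Fin n → ℝ → ℂ), (∀ j, IsH1 (u j) (g j)) → IsOrthonormal u →
      Real.pi ^ 2 / 4 * ∫ x, (∑ j, ‖u j x‖ ^ 2) ^ 3 ≤ ∑ j, ∫ x, ‖g j x‖ ^ 2) := by
  have K : Kinetic := Vale.P371.kinetic
  refine ⟨⟨(LT_eq K).trans (LTone_eq K).symm, ?_, ?_⟩, fun γ hγ => LT_le_lift K hγ, ?_, K⟩
  · rw [← K0_eq]; exact LT_eq K
  · rw [← K0_eq]; rfl
  · intro W hm h0 hW n u g h ho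
    have e : ((3 : ℝ) / 2) = 1 + 1 / 2 := by norm_num
    rw [e] at hW ⊢
    have hv := variational_finset K hm h0 hW h ho Finset.univ
    have hs : ∑ j, ((∫ x, ‖g j x‖ ^ 2) - ∫ x, W x * ‖u j x‖ ^ 2)
        = -∑ j, ((∫ x, W x * ‖u j x‖ ^ 2) - ∫ x, ‖g j x‖ ^ 2) := by
      rw [← Finset.sum_neg_distrib]
      exact Finset.sum_congr rfl fun j _ => by ring
    rw [hs]
    exact neg_le_neg hv

end Vale.Agent.Results.P371.GammaOne
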