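import Mathlib
import Vale.Agent.P371.MDefs
import Vale.Agent.P371.MFinal
import Vale.Agent.P371.MatSpec

namespace Vale.Agent.Results.P371.MatrixGammaOne

open MeasureTheory LTM
open scoped ComplexConjugate ComplexOrder

/-- The one-dimensional Lieb-Thirring conjecture at `γ = 1` for matrix potentials of every size:
`L_1(m) = L_1(1) = L^{(1)}_1 = (2/√3) L^cl_1 = 4/(3√3 π)` for all `m ≥ 1`; consequently
`L_γ(m) ≤ (2/√3) L^cl_γ` for all `γ ≥ 1` and all `m`. The last two parts are the sharp variational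
and kinetic forms for orthonormal families in `H¹(ℝ; ℂ^m)`. -/
theorem result :
    (∀ m : ℕ, 1 ≤ m → LT 1 m = LTone 1 ∧ LT 1 m = ENNReal.ofReal (2 / √3 * Lcl 1)) ∧
    2 / √3 * Lcl 1 = 4 / (3 * √3 * Real.pi) ∧
    (∀ (γ : ℝ) (m : ℕ), 1 ≤ γ → LT γ m ≤ ENNReal.ofReal (2 / √3 * Lcl γ)) ∧
    (∀ (m : ℕ) (W : ℝ → Matrix (Fin m) (Fin m) ℂ), (∀ c d, Measurable fun x => W x c d) →
      (∀ x, (W x).PosSemidef) → Integrable (fun x => trPow (3 / 2) (W x)) →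
      ∀ (n : ℕ) (u g : Fin n → ℝ → Fin m → ℂ), (∀ j, IsH1 (u j) (g j)) → IsOrthonormal u →
        -(4 / (3 * √3 * Real.pi) * ∫ x, trPow (3 / 2) (W x))
          ≤ ∑ j, ((∑ c, ∫ x, ‖g j x c‖ ^ 2)
            - ∫ x, (pair ((W x).mulVec (u j x)) (u j x)).re)) ∧
    (∀ (m n : ℕ) (u g : Fin n → ℝ → Fin m → ℂ), (∀ j, IsH1 (u j) (g j)) → IsOrthonormal u →
      Real.pi ^ 2 / 4 * ∫ x, trPow 3 (Matrix.of fun c d => ∑ j, u j x c * conj (u j x d))
        ≤ ∑ j, ∑ c, ∫ x, ‖g j x c‖ ^ 2) :=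
  final Vale.P371.kineticM

end Vale.Agent.Results.P371.MatrixGammaOne
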