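import Mathlib
import Vale.Agent.P371.MDefs
import Vale.Agent.P371.GFinal
import Vale.Agent.P371.GKin25

namespace Vale.Agent.Results.P371.SharpConstants

open MeasureTheory LTM
open scoped ComplexConjugate ComplexOrder

/-- The one-dimensional Lieb-Thirring constants for scalar and matrix potentials of every size in
the range `1 ≤ γ < 3/2`: `L_γ(m) = L_γ(1) = L^{(1)}_γ = 2 ((γ - 1/2)/(γ + 1/2))^(γ - 1/2) L^cl_γ`
for all `m ≥ 1`. -/
theorem result : ∀ (γ : ℝ) (m : ℕ), 1 ≤ γ → γ < 3 / 2 → 1 ≤ m →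
    LT γ m = LTone γ ∧
    LT γ m = ENNReal.ofReal (2 * ((γ - 1 / 2) / (γ + 1 / 2)) ^ (γ - 1 / 2) * Lcl γ) :=
  fun _ _ h1 h2 hm => LTG.LT_eq_all LTG.kin25 h1 h2 hm

end Vale.Agent.Results.P371.SharpConstants
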